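import Vale.Agent.P171.Final

open MeasureTheory Filter Topology

namespace Vale.Agent.Results.P171.PhaseTransition

/-- Euclidean three-space. -/
abbrev Space := EuclideanSpace ℝ (Fin 3)

/-- The energy `U_N(x_1, ..., x_N) = ∑_{i<j} φ(|x_i - x_j|)`. -/
noncomputable def energy (φ : ℝ → ℝ) {N : ℕ} (x : Fin N → Space) : ℝ :=
  ∑ i : Fin N, ∑ j ∈ Finset.Ioi i, φ (dist (x i) (x j))

/-- The cube `[0,L]^3`. -/
def cube (L : ℝ) : Set Space := {y | ∀ i, 0 ≤ y i ∧ y i ≤ L}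

/-- Local boundedness on `(0,∞)`. -/
def LocallyBdd (φ : ℝ → ℝ) : Prop :=
  ∀ a b : ℝ, 0 < a → ∃ M : ℝ, ∀ r : ℝ, a ≤ r → r ≤ b → |φ r| ≤ M

/-- Stability: `U_N ≥ -B N` for all configurations of distinct points. -/
def Stable (φ : ℝ → ℝ) : Prop :=
  ∃ B : ℝ, ∀ (N : ℕ) (x : Fin N → Space), Function.Injective x → -(B * N) ≤ energy φ x

/-- Temperedness: `φ(r) ≤ C r^(-3-ε)` for `r ≥ R₀`. -/
def Tempered (φ : ℝ → ℝ) : Prop :=
  ∃ C ε R₀ : ℝ, 0 < C ∧ 0 < ε ∧ 0 < R₀ ∧ ∀ r : ℝ, R₀ ≤ r → φ r ≤ C * r ^ (-3 - ε)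

/-- The canonical partition function `Z_{L,N}(β)`. -/
noncomputable def Zcan (φ : ℝ → ℝ) (β L : ℝ) (N : ℕ) : ℝ :=
  (1 / (N.factorial : ℝ)) *
    ∫ x in {x : Fin N → Space | ∀ i, x i ∈ cube L}, Real.exp (-β * energy φ x)

/-- The grand canonical partition function `∑_N z^N Z_{L,N}(β)`. -/
noncomputable def Zgrand (φ : ℝ → ℝ) (β z L : ℝ) : ℝ := ∑' N : ℕ, z ^ N * Zcan φ β L N

open Vale.Agent.P171

/-- There is a bounded, stable, tempered radial pair potential on `ℝ³` with a phase transition: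
at `β = 1` the limiting pressure exists for all `z > 0` and is not differentiable at some
`z₀ > 0`. -/
theorem result :
    ∃ φ : ℝ → ℝ, Measurable φ ∧ LocallyBdd φ ∧ Stable φ ∧ Tempered φ ∧
      (∃ M : ℝ, ∀ r : ℝ, |φ r| ≤ M) ∧
      (∀ L : ℝ, 0 < L → ∀ N : ℕ, IntegrableOn
        (fun x : Fin N → Space => Real.exp (-1 * energy φ x)) {x | ∀ i, x i ∈ cube L}) ∧
      (∀ z L : ℝ, 0 < z → 0 < L → Summable (fun N : ℕ => z ^ N * Zcan φ 1 L N)) ∧
      ∃ P : ℝ → ℝ,
        (∀ z : ℝ, 0 < z →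
          Tendsto (fun L : ℝ => Real.log (Zgrand φ 1 z L) / L ^ 3) atTop (𝓝 (P z))) ∧
        ∃ z₀ : ℝ, 0 < z₀ ∧ ¬ DifferentiableAt ℝ P z₀ := by
  obtain ⟨w, hw, ⟨R, hR, hsum, hwdef⟩, νs, h1, h2⟩ := exists_kink
  have hE := EE_pos
  have hD := DD_pos
  have hH := HH_pos
  have hadm : Adm (vv w) (HH - 128 * EE) := hw.adm
  have hh : 0 < HH - 128 * EE := by unfold HH; linarith
  have hen : ∀ {N : ℕ} (x : Fin N → Space), -1 * energy (fun r => - vv w r) x
      = ∑ i : Fin N, ∑ j ∈ Finset.Ioi i, vv w (dist (x i) (x j)) := by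
    intro N x
    unfold energy
    simp only [Finset.sum_neg_distrib]
    ring
  have hcube : ∀ L, cube L = box L := fun L => rfl
  have hbdd : ∃ M : ℝ, ∀ r : ℝ, |(fun r => - vv w r) r| ≤ M := by
    refine ⟨(∑' j, ep j) * (1 / bv 1) + HH * (1 / bv 1), fun r => ?_⟩
    simp only
    rw [abs_neg]
    unfold vv
    refine (abs_sub _ _).trans (add_le_add ?_ ?_)
    · rw [abs_of_nonneg (hw.pos r), hwdef, ← tsum_mul_right]
      refine (hsum r).tsum_le_tsum (fun j => ?_) (summable_ep.mul_right _)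
      refine mul_le_mul_of_nonneg_left ?_ (ep_pos j).le
      refine (kk_le (by linarith [hR j]) r).trans ?_
      apply one_div_le_one_div_of_le bv_one_pos
      rw [bv_eq (R := R j) (by linarith [hR j])]
      have h3 : 1 ≤ R j ^ 3 := one_le_pow₀ (hR j)
      nlinarith [bv_one_pos]
    · rw [abs_mul, abs_of_nonneg hH.le, abs_of_nonneg (kk_nonneg 1 r)]
      exact mul_le_mul_of_nonneg_left (kk_le one_pos r) hH.le
  refine ⟨fun r => - vv w r, ?_, ?_, ?_, ?_, hbdd, ?_, ?_, fun z => Pr (vv w) (Real.log z - vv w 0 / 2),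
    ?_, ?_⟩
  · exact (hw.meas.sub ((measurable_kk 1).const_mul HH)).neg
  · intro a b _
    obtain ⟨M, hM⟩ := hbdd
    exact ⟨M, fun r _ _ => hM r⟩
  · refine ⟨- (vv w 0 / 2), fun N x _ => ?_⟩
    have e1 := hen x
    have e2 := Q_eq_pairs (vv w) x
    have e3 := Q_nonpos hadm hh x
    linarith
  · refine ⟨1, 1, 2, one_pos, one_pos, two_pos, fun r hr => ?_⟩
    have e1 := hadm.pos r hr
    have e2 : 0 ≤ 1 * r ^ (-3 - 1 : ℝ) := by
      have : 0 ≤ r := by linarith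
      positivity
    linarith
  · intro L hL N
    simp only [hen]
    exact integrableOn_weight hadm hh hL.le N
  · intro z L hz hL
    unfold Zcan
    simp only [hen]
    exact summable_term hadm hh hz hL.le
  · intro z hz
    have ht := (Pr_spec hadm hh (Real.log z - vv w 0 / 2)).2.1
    refine ht.congr' ?_
    filter_upwards [eventually_gt_atTop 0] with L hL
    unfold Zgrand Zcan Vale.Agent.P171.lp
    simp only [hen]
    rw [← grand_eq hadm hh hz hL.le]
    rfl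
  · refine ⟨Real.exp (νs + vv w 0 / 2), Real.exp_pos _, fun hd => ?_⟩
    have h3 : DifferentiableAt ℝ (fun ν => Pr (vv w)
        (Real.log (Real.exp (ν + vv w 0 / 2)) - vv w 0 / 2)) νs := by
      have h4 : DifferentiableAt ℝ (fun ν : ℝ => Real.exp (ν + vv w 0 / 2)) νs := by fun_prop
      exact DifferentiableAt.comp (f := fun ν : ℝ => Real.exp (ν + vv w 0 / 2))
        (g := fun z => Pr (vv w) (Real.log z - vv w 0 / 2)) νs hd h4
    have h5 : (fun ν => Pr (vv w) (Real.log (Real.exp (ν + vv w 0 / 2)) - vv w 0 / 2))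
        = Pr (vv w) := by
      funext ν
      rw [Real.log_exp, add_sub_cancel_right]
    rw [h5] at h3
    exact not_differentiable_of_kink (Pr (vv w)) (ne_of_lt (by linarith)) h1 h2 h3

end Vale.Agent.Results.P171.PhaseTransition
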